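import Vale.Agent.P267.AB2
import Vale.Agent.P267W.AB

/-! P267, compact surfaces: the atlas without drift, part AB2. -/

open scoped Manifold ContDiff Topology

open Filter Metric Set

noncomputable section

namespace Vale.Agent.P267W

open Vale.Agent.P267

set_option linter.unusedSectionVars false

variable {M : Type} [TopologicalSpace M] [ChartedSpace C2 M] [T2Space M]

namespace Cov
variable (C : Cov M) {f : M → ℂ} {p : M}

theorem continuous_t : Continuous C.t :=
  continuous_iff_continuousAt.2 fun p =>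
    Complex.continuous_re.continuousAt.comp (C.t_sm p).continuousAt

theorem isCompact_cl (i : C.I) {r : ℝ} (hr : r < 4) :
    IsCompact {p | p ∈ (C.ch i).source ∧ ‖C.ch i p‖ ≤ r} := by
  have hs : closedBall (0 : C2) r ⊆ (C.ch i).target := by
    rw [C.ch_target]
    exact closedBall_subset_ball hr
  have e : {p | p ∈ (C.ch i).source ∧ ‖C.ch i p‖ ≤ r} = (C.ch i).symm '' closedBall 0 r := by
    refine Subset.antisymm (fun p hp => ⟨C.ch i p, mem_closedBall_zero_iff.2 hp.2,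
      (C.ch i).left_inv hp.1⟩) ?_
    rintro _ ⟨z, hz, rfl⟩
    refine ⟨(C.ch i).map_target (hs hz), ?_⟩
    rw [(C.ch i).right_inv (hs hz)]
    exact mem_closedBall_zero_iff.1 hz
  rw [e]
  exact (isCompact_closedBall 0 r).image_of_continuousOn ((C.ch i).continuousOn_symm.mono hs)

/-- Only finitely many charts meet a slab. -/
theorem fin_slab (a b : ℝ) : ∃ F : Finset C.I, ∀ i p, p ∈ (C.ch i).source → C.t p ∈ Icc a b →
    i ∈ F := by
  refine ⟨Finset.univ ×ˢ Finset.Icc ⌊-C.R - b⌋ ⌈C.R - a⌉, fun i p hp ht => ?_⟩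
  have h := abs_le.1 (C.t_ch hp)
  refine Finset.mem_product.2 ⟨Finset.mem_univ _, Finset.mem_Icc.2 ⟨?_, ?_⟩⟩
  · exact Int.cast_le.1 ((Int.floor_le _).trans (by linarith [h.1, ht.2]))
  · exact Int.cast_le.1 (le_trans (by linarith [h.2, ht.1]) (Int.le_ceil (C.R - a)))

theorem isCompact_t (a b : ℝ) : IsCompact (C.t ⁻¹' Icc a b) := by
  obtain ⟨F, hF⟩ := C.fin_slab a b
  refine (F.isCompact_biUnion fun i _ => C.isCompact_cl i (r := 1) (by norm_num)).of_isClosed_subset
    (isClosed_Icc.preimage C.continuous_t) fun p hp => ?_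
  have h := C.mem_U_idx p
  exact mem_biUnion (hF _ p h.1 hp) ⟨h.1, h.2.le⟩

include C in
theorem second : SecondCountableTopology M := by
  have := fun i : C.I => (C.ch i).secondCountableTopology_source
  exact TopologicalSpace.secondCountableTopology_of_countable_cover
    (fun i : C.I => (C.ch i).open_source)
    (eq_univ_of_forall fun p => mem_iUnion.2 ⟨_, (C.mem_U_idx p).1⟩)

theorem rho_sm (i : C.I) (p : M) : SmAt (fun q => (C.rho i q : ℂ)) p :=
  (C.sm_gz i.2).2 (C.ρ_sm i.1 _)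

theorem rho_nonneg (i : C.I) (p : M) : 0 ≤ C.rho i p := C.ρ_nonneg _ _

theorem rho_supp {i : C.I} (h : C.rho i p ≠ 0) : p ∈ (C.ch i).source ∧ ‖C.ch i p‖ ≤ 1 := by
  rw [C.ch_source, C.ch_apply]
  exact C.ρ_supp _ _ h

/-- The partition of unity as a finite sum. -/
theorem rho_sum {F : Finset C.I} (hF : ∀ i, p ∈ (C.ch i).source → i ∈ F) :
    ∑ i ∈ F, C.rho i p = 1 := by
  classical
  have h0 : ∀ i ∉ F, C.rho i p = 0 := fun i hi => by_contra fun h => hi (hF i (C.rho_supp h).1)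
  have hs : (Function.support fun k : ℤ => ∑ a, C.ρ a ((C.g ^ k) p)) ⊆ F.image Prod.snd := by
    intro k hk
    obtain ⟨a, -, ha⟩ := Finset.exists_ne_zero_of_sum_ne_zero hk
    exact Finset.mem_coe.2 (Finset.mem_image_of_mem Prod.snd
      (hF (a, k) (C.rho_supp (i := (a, k)) ha).1))
  rw [← C.ρ_sum p, finsum_eq_sum_of_support_subset _ hs, ← Finset.sum_product_right']
  exact Finset.sum_subset (fun i hi => Finset.mem_product.2 ⟨Finset.mem_univ _,
    Finset.mem_image_of_mem _ hi⟩) fun i _ hi => h0 i hi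

theorem kf_tr {i j : C.I} (hi : p ∈ (C.ch i).source) (hj : p ∈ (C.ch j).source) :
    C.kf i p = (fderiv ℂ (C.ch j ∘ (C.ch i).symm) (C.ch i p)).det * C.kf j p := by
  have e1 : (C.g ^ (j.2 - i.2)) ((C.g ^ i.2) p) = (C.g ^ j.2) p := by
    rw [← C.gz_add, sub_add_cancel]
  have e2 : C.ch j ∘ (C.ch i).symm = C.e j.1 ∘ (C.g ^ (j.2 - i.2) : M ≃ₜ M) ∘ (C.e i.1).symm :=
    funext fun z => by
      simp only [Function.comp_apply, C.ch_apply, C.ch_symm, ← C.gz_add, sub_eq_add_neg]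
  have h := C.kc_tr i.1 j.1 (j.2 - i.2) _ ((C.ch_source i p).1 hi)
    (e1 ▸ (C.ch_source j p).1 hj)
  rw [e1] at h
  rw [e2, C.ch_apply]
  exact h

theorem kf_ne {i : C.I} (hi : p ∈ (C.ch i).source) : C.kf i p ≠ 0 :=
  C.kc_ne _ _ ((C.ch_source i p).1 hi)

theorem ab2_det {T : C2 → C2 →L[ℂ] C2} {z : C2} (h : AnalyticAt ℂ T z) :
    AnalyticAt ℂ (fun w => (T w).det) z := by
  have e : ∀ A : C2 →L[ℂ] C2, A.det = A (Pi.single 0 1) 0 * A (Pi.single 1 1) 1 -
      A (Pi.single 1 1) 0 * A (Pi.single 0 1) 1 := fun A => by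
    rw [ContinuousLinearMap.det, ← LinearMap.det_toMatrix', Matrix.det_fin_two]
    simp
  have k : ∀ (v : C2) (j : Fin 2), AnalyticAt ℂ (fun w => T w v j) z := fun v j =>
    analyticAt_pi_iff.1 (((ContinuousLinearMap.apply ℂ C2 v).analyticAt _).comp h) j
  simp only [e]
  exact ((k _ _).mul (k _ _)).sub ((k _ _).mul (k _ _))

theorem kf_hol {i j : C.I} (hi : p ∈ (C.ch i).source) (hj : p ∈ (C.ch j).source) :
    HolAt (C.kf i / C.kf j) p := by
  refine ((C.isCh i).hol_fun hi (ab2_det ((C.isCh i).tr (C.isCh j) hi hj).fderiv)).congr ?_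
  filter_upwards [(C.ch i).open_source.mem_nhds hi, (C.ch j).open_source.mem_nhds hj] with q h1 h2
  rw [Pi.div_apply, C.kf_tr h1 h2, mul_div_cancel_right₀ _ (C.kf_ne h2)]
  rfl

theorem κ_bundle : IsBundle HolAt C.κ := fun p => by
  filter_upwards [(C.ch (C.idx p)).open_source.mem_nhds (C.mem_U_idx p).1] with q h
  exact ⟨C.kf_ne h, C.kf_hol h (C.mem_U_idx q).1⟩

theorem κ_pull (k : ℤ) : pull (C.g ^ k : M ≃ₜ M) C.κ = C.κ := by
  funext p q
  simp only [pull, κ, kf, C.idx_gz, ← C.gz_add, sub_add_cancel]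

end Cov

end Vale.Agent.P267W
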