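import Vale.Agent.P267.Defs

/-! P267, compact surfaces: the atlas without drift, part Defs. -/

open scoped Manifold ContDiff Topology

open Filter Metric Set

noncomputable section

namespace Vale.Agent.P267W

open Vale.Agent.P267

/-- A periodic atlas by polydiscs. -/
structure Cov (M : Type) [TopologicalSpace M] [ChartedSpace C2 M] where
  g : M ≃ₜ M
  t : M → ℝ
  ι : Type
  [fin : Fintype ι]
  e : ι → OpenPartialHomeomorph M C2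
  idx : M → ι × ℤ
  ρ : ι → M → ℝ
  kc : ι → M → ℂ
  R : ℝ
  tgt : ∀ a, (e a).target = ball 0 4
  idx_mem : ∀ p, (g ^ (idx p).2) p ∈ (e (idx p).1).source ∧
    ‖e (idx p).1 ((g ^ (idx p).2) p)‖ < 1
  idx_g : ∀ p, idx (g p) = ((idx p).1, (idx p).2 - 1)
  hol : ∀ a, ∀ p ∈ (e a).source, ∀ f, HolAt f p ↔ AnalyticAt ℂ (f ∘ (e a).symm) (e a p)
  sm : ∀ a, ∀ p ∈ (e a).source, ∀ f,
    SmAt f p ↔ ∀ᶠ z in 𝓝 (e a p), ContDiffAt ℝ ∞ (f ∘ (e a).symm) z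
  hol_g : ∀ f p, HolAt (f ∘ g) p ↔ HolAt f (g p)
  sm_g : ∀ f p, SmAt (f ∘ g) p ↔ SmAt f (g p)
  t_sm : ∀ p, SmAt (fun q => (t q : ℂ)) p
  shift : ∀ p, t (g p) = t p + 1
  t_bd : ∀ a, ∀ p ∈ (e a).source, |t p| ≤ R
  ρ_sm : ∀ a p, SmAt (fun q => (ρ a q : ℂ)) p
  ρ_nonneg : ∀ a p, 0 ≤ ρ a p
  ρ_supp : ∀ a p, ρ a p ≠ 0 → p ∈ (e a).source ∧ ‖e a p‖ ≤ 1
  ρ_sum : ∀ p, ∑ᶠ k : ℤ, ∑ a, ρ a ((g ^ k) p) = 1
  kc_ne : ∀ a, ∀ p ∈ (e a).source, kc a p ≠ 0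
  kc_sm : ∀ a, ∀ p ∈ (e a).source, SmAt (fun q => (‖kc a q‖ : ℂ)) p
  kc_tr : ∀ a b (k : ℤ), ∀ p ∈ (e a).source, (g ^ k) p ∈ (e b).source →
    kc a p = (fderiv ℂ (e b ∘ (g ^ k : M ≃ₜ M) ∘ (e a).symm) (e a p)).det * kc b ((g ^ k) p)

attribute [instance] Cov.fin

variable {M : Type} [TopologicalSpace M] [ChartedSpace C2 M]

namespace Cov
variable (C : Cov M)

/-- The index set of all charts. The chart `(a, k)` lies where `|t + k| ≤ R`. -/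
abbrev I := C.ι × ℤ

/-- The chart with index `i`. -/
def ch (i : C.I) : OpenPartialHomeomorph M C2 := shiftCh C.g (C.e i.1) i.2

/-- The polydisc of radius `r` in the chart `i`. -/
def U (i : C.I) (r : ℝ) : Set M := {p | p ∈ (C.ch i).source ∧ ‖C.ch i p‖ < r}

/-- The partition of unity. -/
def rho (i : C.I) (p : M) : ℝ := C.ρ i.1 ((C.g ^ i.2) p)

/-- The frame of the canonical bundle in the chart `i`. -/
def kf (i : C.I) (p : M) : ℂ := C.kc i.1 ((C.g ^ i.2) p)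

/-- The canonical bundle. -/
def κ : M → M → ℂ := fun p => C.kf (C.idx p)

/-- The Cauchy-Riemann operator on functions, in the coordinates of the chart `idx p` at `p`. -/
def db (f : M → ℂ) (p : M) : C2 →L[ℝ] ℂ :=
  dbar (f ∘ (C.ch (C.idx p)).symm) (C.ch (C.idx p) p)

/-- A form of type (0,1) that is smooth near `p`. -/
def SmF (α : M → C2 →L[ℝ] ℂ) (p : M) : Prop :=
  ∃ l : List ((M → ℂ) × (M → ℂ)), (∀ x ∈ l, SmAt x.1 p ∧ SmAt x.2 p) ∧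
    ∀ᶠ q in 𝓝 p, α q = (l.map fun x => x.1 q • C.db x.2 q).sum

/-- `a` is a smooth primitive of `α` near `p`. -/
def Prim (α : M → C2 →L[ℝ] ℂ) (a : M → ℂ) (p : M) : Prop :=
  SmAt a p ∧ ∀ᶠ q in 𝓝 p, C.db a q = α q

/-- On the charts in `J` the bundle `u` has the frames `exp (a i)` with small `a i`. -/
structure TailOn (u : M → M → ℂ) (J : Set C.I) (a : C.I → M → ℂ) (δ B : ℝ) : Prop where
  sm : ∀ i ∈ J, ∀ p ∈ C.U i 2, SmAt (a i) p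
  frame : ∀ i ∈ J, ∀ p ∈ C.U i 2, HolAt ((fun q => Complex.exp (a i q)) / u p) p
  hol : ∀ i ∈ J, ∀ j ∈ J, ∀ p ∈ C.U i 2 ∩ C.U j 2, HolAt (a i - a j) p
  bd : ∀ i ∈ J, ∀ p ∈ C.U i 2, ‖a i p‖ ≤ B * Real.exp (-δ * |(i.2 : ℝ)|) ∧
    ‖C.db (a i) p‖ ≤ B * Real.exp (-δ * |(i.2 : ℝ)|)

/-- A holomorphic Hermitian bundle that is trivial at both ends up to a small tail. -/
structure Tail (u : M → M → ℂ) : Prop where
  hol : IsBundle HolAt u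
  sm : ∀ p, SmAt (fun q => (‖u p q‖ : ℂ)) p
  tail : ∃ (a : C.I → M → ℂ) (δ B : ℝ) (T : ℤ), 0 < δ ∧ C.TailOn u {i | T ≤ |i.2|} a δ B
  framed : ∀ c : C.I, ∃ (F : M → ℂ) (B : ℝ), ∀ q ∈ C.U c 2,
    F q ≠ 0 ∧ HolAt (F / u q) q ∧ ‖F q‖ ≤ B ∧ ‖(F q)⁻¹‖ ≤ B

/-- A locally bounded one-cocycle that decays at both ends. -/
structure Dec (u : M → M → ℂ) (f : M → M → ℂ) : Prop where
  coc : ∀ p, ∀ᶠ q in 𝓝 p, HolAt (u q * (f p - f q)) q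
  loc : ∀ p, ∃ B, ∀ᶠ q in 𝓝 p, ‖f p q‖ ≤ B
  dec : ∃ (ε B : ℝ) (T : ℤ), 0 < ε ∧ ∀ i : C.I, T ≤ |i.2| → ∃ F : M → ℂ, ∀ p ∈ C.U i (3 / 2),
    HolAt (u p * (f p - F)) p ∧ ‖F p‖ ≤ B * Real.exp (-ε * |(i.2 : ℝ)|)

/-- Decaying cocycles are coboundaries of bounded sections. -/
def S1 (u : M → M → ℂ) : Prop :=
  ∀ f, C.Dec u f → ∃ w, Bdd w ∧ ∀ p, HolAt (u p * (f p - w)) p

/-- `s` tends to `c` exponentially at the end `A`. -/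
def LimA (s : M → ℂ) (c : ℂ) : Prop :=
  ∃ ε B T : ℝ, 0 < ε ∧ ∀ p, C.t p ≤ T → ‖s p - c‖ ≤ B * Real.exp (ε * C.t p)

/-- `s` tends to `c` exponentially at the end `B`. -/
def LimB (s : M → ℂ) (c : ℂ) : Prop :=
  ∃ ε B T : ℝ, 0 < ε ∧ ∀ p, T ≤ C.t p → ‖s p - c‖ ≤ B * Real.exp (-ε * C.t p)

/-- Solving `α = dbar h + s γ` for a decaying form `α` that is closed off a compact set `K` on
which `s` has no zero; `γ = dbar v` locally off `K`. -/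
def Solve (u : M → M → ℂ) (s : M → ℂ) : Prop :=
  ∀ (α : M → C2 →L[ℝ] ℂ) (K : Set M), IsCompact K → (∀ p ∈ K, s p ≠ 0) → (∀ p, C.SmF α p) →
    (∀ p ∉ K, ∃ a, C.Prim α a p) →
    (∃ ε B : ℝ, 0 < ε ∧ ∀ p, ‖α p‖ ≤ B * Real.exp (-ε * |C.t p|)) →
    ∃ h : M → ℂ, Bdd h ∧ (∀ p, SmAt h p) ∧ (∃ c, C.LimA h c) ∧
      (∀ p ∉ K, ∃ v, SmAt ((u p)⁻¹ * v) p ∧ C.Prim α (h + s * v) p) ∧
      ∃ (ε B : ℝ) (T : ℤ), 0 < ε ∧ ∀ i : C.I, T ≤ |i.2| → ∃ v : M → ℂ, ∀ p ∈ C.U i (3 / 2),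
        SmAt ((u p)⁻¹ * v) p ∧ C.Prim α (h + s * v) p ∧
          ‖v p‖ ≤ B * Real.exp (-ε * |(i.2 : ℝ)|)

/-- The hypotheses of the theorem in the working model. -/
structure Hyp {n : ℕ} (S : Set M) (E : Fin n → M → M → ℂ) : Prop where
  noK : ∀ (c : ℂ) (s : M → ℂ), Sec C.κ s → (∀ p, s (C.g p) = c * s p) → s = 0
  compact : IsCompact S
  smooth : ∀ i, IsBundle SmAt (E i)
  metric : ∀ i p, SmAt (fun q => (‖E i p q‖ : ℂ)) p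
  triv : ∀ i, ∀ p ∉ S, E i p = 1
  euler : ∀ i (m : ℤ), ∀ᶠ N : ℕ in atTop, ∀ u : M → M → ℂ, IsBundle HolAt u →
    pull (C.g ^ N) u = u →
    (∀ p, SmAt (u p / ∏ᶠ k : ℤ, pull (C.g ^ (k * N)) (E i) p ^ m) p) →
    Euler (C.g ^ N) u C.κ ((m - m ^ 2) / 2)
  indep : ∀ (W : Finset (Fin n × ℤ)) (a : Fin n × ℤ → ℤ) (U : Set M), IsOpen U →
    (∀ w ∈ W, (C.g ^ w.2) ⁻¹' S ⊆ U) →
    TrivialOn (∏ w ∈ W, pull (C.g ^ w.2) (E w.1) ^ a w) U → ∀ w ∈ W, a w = 0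

/-- The smooth bundles have frames on whole charts. -/
def Framed {n : ℕ} (S : Set M) (E : Fin n → M → M → ℂ) : Prop :=
  ∀ i (j : C.I), ∃ φ : M → ℂ, (∀ p ∈ (C.ch j).source, φ p ≠ 0 ∧ SmAt (φ / E i p) p) ∧
    (Disjoint (C.ch j).source S → φ = 1)

/-- What the solver part delivers. -/
structure Out {n : ℕ} (E : Fin n → M → M → ℂ) (u : Fin n → M → M → ℂ) (s : Fin n → M → ℂ) :
    Prop where
  tail : ∀ i, C.Tail (u i)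
  iso : ∀ i p, SmAt (u i p / E i p) p
  sec : ∀ i, Sec (u i) (s i)
  bdd : ∀ i, Bdd (s i)
  one : ∀ i, C.LimB (s i) 1
  const : ∀ f : M → ℂ, (∀ p, HolAt f p) → Bdd f → ∃ c, ∀ p, f p = c
  lim : ∀ v, C.Tail v → ∀ q, Sec v q → Bdd q → ∃ c, C.LimA q c
  s1 : ∀ i, C.S1 (u i)⁻¹
  solve : ∀ v, C.Tail v → ∀ q, Sec v q → Bdd q → C.LimB q 1 → C.Solve v q

end Cov

end Vale.Agent.P267W
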