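import Vale.Agent.P267.GG
import Vale.Agent.P267W.Defs

/-! P267, compact surfaces: the model without drift. -/

open scoped Manifold ContDiff Topology
open Filter Metric Set Asymptotics

noncomputable section

namespace Vale.Agent.P267W

open Vale.Agent.P267

set_option linter.unusedSectionVars false

variable {M : Type} [TopologicalSpace M] [ChartedSpace C2 M] [T2Space M]

variable {X : Type} [TopologicalSpace X] [ChartedSpace C2 X] [T2Space X] [IsManifold 𝓘(ℂ, C2) ω X]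
  [IsManifold 𝓘(ℂ, C2) ω M] {π : M → X} {g : M ≃ₜ M} {t : M → ℝ}

/-- A cyclic cover with a smooth level function. -/
structure Cv (π : M → X) (g : M ≃ₜ M) (t : M → ℝ) : Prop where
  loc : IsLocalDiffeomorph 𝓘(ℂ, C2) 𝓘(ℂ, C2) ω π
  surj : Function.Surjective π
  fib : ∀ p q, π p = π q ↔ ∃ k : ℤ, (g ^ k) p = q
  hol : ContMDiff 𝓘(ℂ, C2) 𝓘(ℂ, C2) ω g
  hol_inv : ContMDiff 𝓘(ℂ, C2) 𝓘(ℂ, C2) ω g.symm
  smooth : ∀ p, SmAt (fun q => (t q : ℂ)) p
  shift : ∀ p, t (g p) = t p + 1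

theorem Cv.t_gz (h : Cv π g t) (k : ℤ) (p : M) : t ((g ^ k) p) = t p + k := by
  induction k using Int.induction_on generalizing p with
  | zero => simp
  | succ k ih =>
    rw [zpow_add_one, Homeomorph.mul_apply, ih, h.shift]
    push_cast
    ring
  | pred k ih =>
    have e := h.shift (g⁻¹ p)
    rw [← Homeomorph.mul_apply, mul_inv_cancel, Homeomorph.one_apply] at e
    rw [zpow_sub_one, Homeomorph.mul_apply, ih, e]
    push_cast
    ring

theorem Cv.pi_gz (h : Cv π g t) (k : ℤ) (p : M) : π ((g ^ k) p) = π p :=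
  ((h.fib p _).2 ⟨k, rfl⟩).symm

theorem Cv.pre [CompactSpace X] (h : Cv π g t) {W : M → Set M} (hW : ∀ p, W p ∈ 𝓝 p) :
    ∃ (m : ℕ) (e : Fin m → OpenPartialHomeomorph M C2) (idx : M → Fin m × ℤ) (R : ℝ),
      Pre g t e idx R ∧ ∀ a, ∃ p, (e a).source ⊆ W p := by
  have tc : Continuous t := continuous_iff_continuousAt.2 fun p =>
    Complex.continuous_re.continuousAt.comp (h.smooth p).continuousAt
  choose P h1 h2 h3 h4 h5 using fun p : M =>
    exists_ch p (inter_mem (tc.continuousAt (ball_mem_nhds (t p) one_pos)) (hW p))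
  obtain ⟨s, hs⟩ := isCompact_univ.elim_finite_subcover
    (fun p => π '' ((P p).source ∩ P p ⁻¹' ball 0 1))
    (fun p => h.loc.isOpenMap _ ((P p).isOpen_inter_preimage isOpen_ball)) fun x _ => by
      obtain ⟨p, rfl⟩ := h.surj x
      exact mem_iUnion.2 ⟨p, p, ⟨h2 p, by simp [h3]⟩, rfl⟩
  obtain ⟨c, hc⟩ : ∃ c : Fin s.card → M, ∀ p ∈ s, ∃ a, c a = p :=
    ⟨fun a => s.equivFin.symm a, fun p hp => ⟨s.equivFin ⟨p, hp⟩, by simp⟩⟩
  have k1 : ∀ x, ∃ a r, π r = x ∧ r ∈ (P (c a)).source ∧ ‖P (c a) r‖ < 1 := fun x => by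
    obtain ⟨p, hp, r, hr, e⟩ := mem_iUnion₂.1 (hs (mem_univ x))
    obtain ⟨a, rfl⟩ := hc p hp
    exact ⟨a, r, e, hr.1, mem_ball_zero_iff.1 hr.2⟩
  choose a r e1 e2 e3 using k1
  choose k hk using fun p => (h.fib p (r (π p))).1 (e1 _).symm
  have gz := fun k : ℤ => comp_homeo (g ^ k) (contMDiff_zpow g h.hol h.hol_inv k) (by
    have := contMDiff_zpow g h.hol h.hol_inv (-k)
    rwa [zpow_neg] at this)
  refine ⟨s.card, fun a => P (c a), fun p => (a (π p), k p), ∑ a, |t (c a)| + 1,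
    ⟨fun _ => h1 _, fun _ => h4 _, fun p => ?_, fun p => ?_, fun k f p => (gz k f p).1,
    fun k f p => (gz k f p).2, tc, h.t_gz, fun a p hp => ?_⟩,
    fun a => ⟨c a, fun q hq => (h5 _ hq).2⟩⟩
  · simp only [hk]
    exact ⟨e2 _, e3 _⟩
  · have e : π (g p) = π p := by simpa using h.pi_gz 1 p
    have e4 := congrArg t (hk (g p))
    rw [e, ← hk p, h.t_gz, h.t_gz, h.shift] at e4
    rw [e]
    refine congrArg _ (Int.cast_injective (α := ℝ) ?_)
    push_cast
    linarith
  · have h6 := Finset.single_le_sum (f := fun a => |t (c a)|) (fun _ _ => abs_nonneg _)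
      (Finset.mem_univ a)
    linarith [abs_sub_abs_le_abs_sub (t p) (t (c a)), show |t p - t (c a)| < 1 from (h5 _ hp).1]

variable {ι : Type} {e : ι → OpenPartialHomeomorph M C2} {idx : M → ι × ℤ} {R : ℝ}

/-- The projection read in charts is analytic with invertible derivative. -/
theorem Cv.chart (h : Cv π g t) {P : OpenPartialHomeomorph M C2} (hP : IsCh P) {p : M}
    (hp : p ∈ P.source) {x : X} (hx : π p ∈ (chartAt C2 x).source) :
    AnalyticAt ℂ (chartAt C2 x ∘ π ∘ P.symm) (P p) ∧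
      (fderiv ℂ (chartAt C2 x ∘ π ∘ P.symm) (P p)).det ≠ 0 := by
  have a := gc_an (h.loc p).contMDiffAt hP hp (isCh_chartAt x) hx
  have l : (h.loc p).localInverse (π p) = p := (h.loc p).localInverse_eventuallyEq_left.eq_of_nhds
  have b := gc_an (h.loc p).localInverse_contMDiffAt (isCh_chartAt x) hx hP (by rw [l]; exact hp)
  have ev : ∀ᶠ q in 𝓝 p, π q ∈ (chartAt C2 x).source ∧ (h.loc p).localInverse (π q) = q :=
    (show ∀ᶠ q in 𝓝 p, π q ∈ (chartAt C2 x).source from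
      (h.loc p).contMDiffAt.continuousAt.preimage_mem_nhds
        ((chartAt C2 x).open_source.mem_nhds hx)).and (h.loc p).localInverse_eventuallyEq_left
  have d := gc_det (T := id) a (by simp only [Function.comp_apply, P.left_inv hp]) b (by
    filter_upwards [(P.tendsto_symm hp).eventually ev, P.eventually_right_inverse' hp] with z h1 h2
    simp only [Function.comp_apply, id, (chartAt C2 x).left_inv h1.1, h1.2, h2])
  refine ⟨a, fun k => ?_⟩
  rw [k, zero_mul, fderiv_id] at d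
  exact one_ne_zero (LinearMap.det_id.symm.trans d)

theorem Cv.frames (h : Cv π g t) (hp : Pre g t e idx R) : ∃ k₀ : ι → M → ℂ,
    (∀ a, ∀ p ∈ (e a).source, k₀ a p ≠ 0) ∧
    (∀ a b (k : ℤ), ∀ p ∈ (e a).source, (g ^ k) p ∈ (e b).source →
      k₀ a p = (fderiv ℂ (e b ∘ (g ^ k : M ≃ₜ M) ∘ (e a).symm) (e a p)).det * k₀ b ((g ^ k) p)) ∧
    ∀ a (k : ℤ) p, (g ^ k) p ∈ (e a).source → ∃ J : M → ℂ, HolAt J p ∧ J p ≠ 0 ∧
      ∀ᶠ q in 𝓝 p, k₀ a ((g ^ k) q) = J q * pull π (canon X) p q := by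
  have cπ : Continuous π := h.loc.contMDiff.continuous
  refine ⟨fun a q => (fderiv ℂ (chartAt C2 (π q) ∘ π ∘ (e a).symm) (e a q)).det,
    fun a p ha => (h.chart (hp.isCh a) ha (mem_chart_source C2 _)).2, fun a b k p ha hb => ?_,
    fun a k p ha => ?_⟩
  · have ev : ∀ᶠ q in 𝓝 p, (g ^ k) q ∈ (e b).source :=
      (g ^ k).continuous.continuousAt.preimage_mem_nhds ((e b).open_source.mem_nhds hb)
    refine gc_det (gc_an (contMDiff_zpow g h.hol h.hol_inv k p) (hp.isCh a) ha (hp.isCh b) hb)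
      (by simp only [Function.comp_apply, (e a).left_inv ha])
      (h.chart (hp.isCh b) hb (mem_chart_source C2 _)).1 ?_
    filter_upwards [((e a).tendsto_symm ha).eventually ev] with z hz
    simp only [Function.comp_apply, (e b).left_inv hz, h.pi_gz]
  · have c := h.chart (hp.isCh a) ha (x := π p) (by rw [h.pi_gz]; exact mem_chart_source C2 _)
    refine ⟨((fun w => (fderiv ℂ (chartAt C2 (π p) ∘ π ∘ (e a).symm) w).det) ∘ e a) ∘
      (g ^ k : M ≃ₜ M), (hp.hol_gz k _ p).2 ((hp.isCh a).hol_fun ha (analyticAt_det c.1)), c.2, ?_⟩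
    have e1 : ∀ᶠ q in 𝓝 p, (g ^ k) q ∈ (e a).source :=
      (g ^ k).continuous.continuousAt.preimage_mem_nhds ((e a).open_source.mem_nhds ha)
    have e2 : ∀ᶠ q in 𝓝 p, π q ∈ (chartAt C2 (π p)).source :=
      cπ.continuousAt.preimage_mem_nhds (chart_source_mem_nhds C2 (π p))
    filter_upwards [e1, e2] with q h1 h2
    have h3 : π ((g ^ k) q) ∈ (chartAt C2 (π p)).source := by rwa [h.pi_gz]
    have ev : ∀ᶠ y in 𝓝 ((g ^ k) q), π y ∈ (chartAt C2 (π p)).source :=
      cπ.continuousAt.preimage_mem_nhds ((chartAt C2 (π p)).open_source.mem_nhds h3)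
    refine gc_det (h.chart (hp.isCh a) h1 h3).1
      (by simp only [Function.comp_apply, (e a).left_inv h1, h.pi_gz])
      ((isCh_chartAt (π p)).tr (isCh_chartAt (π q)) h2 (mem_chart_source C2 _)) ?_
    filter_upwards [((e a).tendsto_symm h1).eventually ev] with z hz
    simp only [Function.comp_apply, (chartAt C2 (π p)).left_inv hz, h.pi_gz]

theorem Cv.model [CompactSpace X] (h : Cv π g t) {W : M → Set M} (hW : ∀ p, W p ∈ 𝓝 p) :
    ∃ C : Cov M, C.g = g ∧ C.t = t ∧ (∀ a, ∃ p, (C.e a).source ⊆ W p) ∧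
      ∃ l : M → ℂ, (∀ p, l p ≠ 0) ∧
        ∀ s, Sec C.κ s → ∀ p, HolAt (pull π (canon X) p * (s / l)) p := by
  obtain ⟨m, e, idx, R, hp, hf⟩ := h.pre hW
  obtain ⟨ρ, r1, r2, r3, r4⟩ := hp.part
  obtain ⟨k₀, k1, k2, k3⟩ := h.frames hp
  obtain ⟨l, l1, l2, l3⟩ := hp.normal k1 k2
  have key : ∀ p, ∃ J : M → ℂ, HolAt J p ∧ J p ≠ 0 ∧ ∀ᶠ q in 𝓝 p,
      k₀ (idx p).1 ((g ^ (idx p).2) q) / l ((g ^ (idx p).2) q) * l q =
        J q * pull π (canon X) p q := fun p => by
    obtain ⟨J, j1, j2, j3⟩ := k3 _ _ p (hp.idx_mem p).1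
    refine ⟨J, j1, j2, j3.mono fun q hq => ?_⟩
    rw [l2, div_mul_cancel₀ _ (l1 q), hq]
  refine ⟨{ g := g, t := t, ι := Fin m, e := e, idx := idx, ρ := ρ
            kc := fun a q => k₀ a q / l q
            R := R, tgt := hp.tgt, idx_mem := hp.idx_mem, idx_g := hp.idx_g
            hol := fun a => (hp.isCh a).hol
            sm := fun a => (hp.isCh a).sm
            hol_g := fun f p => by simpa only [zpow_one] using hp.hol_gz 1 f p
            sm_g := fun f p => by simpa only [zpow_one] using hp.sm_gz 1 f p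
            t_sm := h.smooth, shift := h.shift, t_bd := hp.t_bd
            ρ_sm := r1, ρ_nonneg := r2, ρ_supp := r3, ρ_sum := r4
            kc_ne := fun a p hq => div_ne_zero (k1 a p hq) (l1 p)
            kc_sm := l3
            kc_tr := fun a b k p h1 h2 => by rw [k2 a b k p h1 h2, l2, mul_div_assoc] },
    rfl, rfl, hf, l, l1, fun s hs p => ?_⟩
  have e1 : l * (s / l) = s := funext fun q => mul_div_cancel₀ _ (l1 q)
  exact (hol_rescale (key p)).2 (by rw [e1]; exact hs p)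

end Vale.Agent.P267W
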